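import Mathlib

namespace Vale.Agent.P317

open Set

/-- PART B (Ball.lean) -/
theorem ball_count {α : Type*} [Finite α] (E B' : Set α) (r c : ℕ) (hB'E : B' ⊆ E)
    (hB' : B'.ncard = r) :
    {B : Set α | B ⊆ E ∧ B.ncard = r ∧ (B \ B').ncard ≤ c}.ncard
      ≤ ∑ j ∈ Finset.range (c + 1), r.choose j * (E.ncard - r).choose j := by
  classical
  cases nonempty_fintype α
  set S : Set (Set α) := {B : Set α | B ⊆ E ∧ B.ncard = r ∧ (B \ B').ncard ≤ c} with hS
  let Ef : Finset α := E.toFinset
  let Bf : Finset α := B'.toFinset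
  let T : Finset (Finset α × Finset α) :=
    (Finset.range (c + 1)).biUnion
      (fun j => (Finset.powersetCard j Bf) ×ˢ (Finset.powersetCard j (Ef \ Bf)))
  let φ : Set α → Finset α × Finset α := fun B => ((B' \ B).toFinset, (B \ B').toFinset)
  have hBf : Bf.card = r := by
    rw [← hB', Set.ncard_eq_toFinset_card']
  have hEf : (Ef \ Bf).card = E.ncard - r := by
    have hsub : Bf ⊆ Ef := by
      intro a ha
      simp only [Bf, Ef, Set.mem_toFinset] at ha ⊢
      exact hB'E ha
    rw [Finset.card_sdiff_of_subset hsub, hBf, Set.ncard_eq_toFinset_card']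
  have hinj : Set.InjOn φ S := by
    intro B₁ _ B₂ _ h
    simp only [φ, Prod.mk.injEq, Set.toFinset_inj] at h
    obtain ⟨h1, h2⟩ := h
    ext a
    by_cases ha : a ∈ B'
    · constructor
      · intro h3
        by_contra h4
        have : a ∈ B' \ B₂ := ⟨ha, h4⟩
        rw [← h1] at this
        exact this.2 h3
      · intro h3
        by_contra h4
        have : a ∈ B' \ B₁ := ⟨ha, h4⟩
        rw [h1] at this
        exact this.2 h3
    · constructor
      · intro h3
        have : a ∈ B₁ \ B' := ⟨h3, ha⟩
        rw [h2] at this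
        exact this.1
      · intro h3
        have : a ∈ B₂ \ B' := ⟨h3, ha⟩
        rw [← h2] at this
        exact this.1
  have hmaps : φ '' S ⊆ (T : Set (Finset α × Finset α)) := by
    rintro _ ⟨B, ⟨hBE, hBr, hBc⟩, rfl⟩
    have hcard : (B' \ B).ncard = (B \ B').ncard := by
      have h1 := Set.ncard_inter_add_ncard_sdiff_eq_ncard B' B (Set.toFinite _)
      have h2 := Set.ncard_inter_add_ncard_sdiff_eq_ncard B B' (Set.toFinite _)
      rw [Set.inter_comm] at h2
      omega
    simp only [T, Finset.coe_biUnion, Set.mem_iUnion, Finset.mem_coe, Finset.mem_range,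
      Finset.mem_product, Finset.mem_powersetCard, φ]
    refine ⟨(B \ B').ncard, by omega, ⟨?_, ?_⟩, ⟨?_, ?_⟩⟩
    · intro a ha
      simp only [Set.mem_toFinset, Bf] at ha ⊢
      exact ha.1
    · rw [← hcard, Set.ncard_eq_toFinset_card']
    · intro a ha
      simp only [Set.mem_toFinset, Finset.mem_sdiff, Ef, Bf] at ha ⊢
      exact ⟨hBE ha.1, ha.2⟩
    · rw [Set.ncard_eq_toFinset_card']
  calc S.ncard = (φ '' S).ncard := (Set.InjOn.ncard_image hinj).symm
    _ ≤ (T : Set (Finset α × Finset α)).ncard := Set.ncard_le_ncard hmaps (Finset.finite_toSet T)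
    _ = T.card := Set.ncard_coe_finset T
    _ ≤ ∑ j ∈ Finset.range (c + 1),
          ((Finset.powersetCard j Bf) ×ˢ (Finset.powersetCard j (Ef \ Bf))).card :=
        Finset.card_biUnion_le
    _ = ∑ j ∈ Finset.range (c + 1), r.choose j * (E.ncard - r).choose j := by
        apply Finset.sum_congr rfl
        intro j _
        rw [Finset.card_product, Finset.card_powersetCard, Finset.card_powersetCard, hBf, hEf]

end Vale.Agent.P317
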