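import Mathlib

/-! P317: every vertex of the exchange digraph has an out-arc. -/

namespace Vale.Agent.P317

open Set

theorem out1 {α : Type*} (M : Matroid α) {B B' : Set α} (hB : M.IsBase B) (hB' : M.IsBase B')
    {y : α} (hy : y ∈ B' \ B) : ∃ x ∈ B \ B', x ∉ M.closure (B' \ {y}) := by
  by_contra hcon
  push Not at hcon
  have hsub : B ⊆ M.closure (B' \ {y}) := by
    intro z hz
    by_cases hzB' : z ∈ B'
    · apply M.subset_closure (B' \ {y}) (sdiff_subset.trans hB'.subset_ground)
      refine ⟨hzB', ?_⟩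
      intro hzy
      have : z = y := hzy
      exact hy.2 (this ▸ hz)
    · exact hcon z ⟨hz, hzB'⟩
  have h1 : M.closure B ⊆ M.closure (B' \ {y}) := M.closure_subset_closure_of_subset_closure hsub
  rw [hB.closure_eq] at h1
  have hyE : y ∈ M.E := hB'.subset_ground hy.1
  exact hB'.indep.notMem_closure_sdiff_of_mem hy.1 (h1 hyE)

theorem out2 {α : Type*} (M : Matroid α) {B B' : Set α} (hB' : M.IsBase B') {x : α}
    (hx : x ∈ B \ B') (hind : M.Indep (insert x (B ∩ B'))) :
    ∃ y ∈ B' \ B, x ∉ M.closure (B' \ {y}) := by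
  by_contra hcon
  push Not at hcon
  have hxE : x ∈ M.E := hind.subset_ground (mem_insert _ _)
  have hK : M.Indep (B ∩ B') := hB'.indep.subset inter_subset_right
  have hxK : x ∉ B ∩ B' := fun h => hx.2 h.2
  have hnot : x ∉ M.closure (B ∩ B') := (hK.notMem_closure_iff_of_notMem hxK hxE).2 hind
  rcases (B' \ B).eq_empty_or_nonempty with hemp | hne
  · -- then `B' ⊆ B`, so `B ∩ B' = B'` spans
    have hsub : B' ⊆ B := by
      intro z hz
      by_contra hzB
      have : z ∈ B' \ B := ⟨hz, hzB⟩
      rw [hemp] at this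
      exact this
    have : B ∩ B' = B' := inter_eq_right.2 hsub
    rw [this, hB'.closure_eq] at hnot
    exact hnot hxE
  · have hcl := Matroid.closure_biInter_eq_biInter_closure_of_biUnion_indep (M := M) hne
      (I := fun y => B' \ {y}) (hB'.indep.subset (by
        intro z hz
        simp only [mem_iUnion] at hz
        obtain ⟨i, _, hz⟩ := hz
        exact hz.1))
    have hmem : x ∈ ⋂ y ∈ B' \ B, M.closure (B' \ {y}) := by
      simp only [mem_iInter]
      intro y hy
      exact hcon y hy
    rw [← hcl] at hmem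
    have hsub : (⋂ y ∈ B' \ B, B' \ {y}) ⊆ B ∩ B' := by
      intro z hz
      simp only [mem_iInter] at hz
      obtain ⟨y0, hy0⟩ := hne
      have hzB' : z ∈ B' := (hz y0 hy0).1
      refine ⟨?_, hzB'⟩
      by_contra hzB
      exact (hz z ⟨hzB', hzB⟩).2 rfl
    exact hnot (M.closure_subset_closure hsub hmem)

end Vale.Agent.P317
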