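import Mathlib

/-! P317: a shortest closed alternating walk has no chords (pure combinatorics). -/

namespace Vale.Agent.P317

open Set

/-- closed alternating walk `y 0 -> x 0 -> y 1 -> ... -> y k = y 0` -/
def IsCW {α : Type*} (X Y : Set α) (R1 R2 : α → α → Prop) (k : ℕ) (y x : ℕ → α) : Prop :=
  0 < k ∧ y k = y 0 ∧ (∀ i ≤ k, y i ∈ Y) ∧ (∀ i < k, x i ∈ X) ∧
    (∀ i < k, R1 (y i) (x i)) ∧ (∀ i < k, R2 (x i) (y (i + 1)))

theorem exists_cw {α : Type*} [Finite α] (X Y : Set α) (R1 R2 : α → α → Prop)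
    (hY : Y.Nonempty)
    (h1 : ∀ y ∈ Y, ∃ x ∈ X, R1 y x) (h2 : ∀ x ∈ X, ∃ y ∈ Y, R2 x y) :
    ∃ (k : ℕ) (y x : ℕ → α), IsCW X Y R1 R2 k y x := by
  classical
  obtain ⟨y0, hy0⟩ := hY
  -- successor maps
  have h1' : ∀ y : α, ∃ x : α, y ∈ Y → (x ∈ X ∧ R1 y x) := by
    intro y
    by_cases hy : y ∈ Y
    · obtain ⟨x, hx, hr⟩ := h1 y hy
      exact ⟨x, fun _ => ⟨hx, hr⟩⟩
    · exact ⟨y, fun h => absurd h hy⟩
  have h2' : ∀ x : α, ∃ y : α, x ∈ X → (y ∈ Y ∧ R2 x y) := by
    intro x
    by_cases hx : x ∈ X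
    · obtain ⟨y, hy, hr⟩ := h2 x hx
      exact ⟨y, fun _ => ⟨hy, hr⟩⟩
    · exact ⟨x, fun h => absurd h hx⟩
  choose g1 hg1 using h1'
  choose g2 hg2 using h2'
  let s : ℕ → α := fun n => (fun y => g2 (g1 y))^[n] y0
  have hs0 : s 0 = y0 := rfl
  have hss : ∀ n, s (n + 1) = g2 (g1 (s n)) := by
    intro n
    simp only [s, Function.iterate_succ_apply']
  have hsY : ∀ n, s n ∈ Y := by
    intro n
    induction n with
    | zero => rw [hs0]; exact hy0
    | succ n ih =>
      rw [hss]
      exact (hg2 _ (hg1 _ ih).1).1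
  obtain ⟨a, b, hab, hsab⟩ := Finite.exists_ne_map_eq_of_infinite s
  wlog hlt : a < b generalizing a b
  · exact this b a hab.symm hsab.symm (by omega)
  refine ⟨b - a, fun m => s (a + m), fun m => g1 (s (a + m)), by omega, ?_, ?_, ?_, ?_, ?_⟩
  · show s (a + (b - a)) = s (a + 0)
    rw [Nat.add_sub_cancel' hlt.le, Nat.add_zero, hsab]
  · intro i _
    exact hsY _
  · intro i _
    exact (hg1 _ (hsY _)).1
  · intro i _
    exact (hg1 _ (hsY _)).2
  · intro i _
    show R2 (g1 (s (a + i))) (s (a + (i + 1)))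
    rw [← Nat.add_assoc, hss]
    exact (hg2 _ (hg1 _ (hsY _)).1).2

/-- a chord `R1 (y i) (x j)` with `i < j` gives a shorter closed walk -/
theorem cw_short1 {α : Type*} {X Y : Set α} {R1 R2 : α → α → Prop} {k : ℕ} {y x : ℕ → α}
    (h : IsCW X Y R1 R2 k y x) {i j : ℕ} (hij : i < j) (hj : j < k) (hc : R1 (y i) (x j)) :
    ∃ k' < k, ∃ y' x', IsCW X Y R1 R2 k' y' x' := by
  obtain ⟨hk, hcl, hyY, hxX, hr1, hr2⟩ := h
  refine ⟨k - (j - i), by omega, fun m => if m ≤ i then y m else y (m + (j - i)),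
    fun m => if m < i then x m else x (m + (j - i)), by omega, ?_, ?_, ?_, ?_, ?_⟩
  · have h1 : ¬ (k - (j - i) ≤ i) := by omega
    have h2 : k - (j - i) + (j - i) = k := by omega
    simp only [h1, if_false, h2, Nat.zero_le, if_true]
    exact hcl
  · intro m hm
    by_cases h1 : m ≤ i
    · simp only [h1, if_true]; exact hyY m (by omega)
    · simp only [h1, if_false]; exact hyY _ (by omega)
  · intro m hm
    by_cases h1 : m < i
    · simp only [h1, if_true]; exact hxX m (by omega)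
    · simp only [h1, if_false]; exact hxX _ (by omega)
  · intro m hm
    rcases lt_trichotomy m i with h1 | h1 | h1
    · have h2 : m ≤ i := h1.le
      simp only [h1, h2, if_true]; exact hr1 m (by omega)
    · subst h1
      have h3 : m + (j - m) = j := by omega
      simp only [le_refl, if_true, lt_irrefl, if_false, h3]; exact hc
    · have h2 : ¬ m ≤ i := by omega
      have h3 : ¬ m < i := by omega
      simp only [h2, h3, if_false]; exact hr1 _ (by omega)
  · intro m hm
    by_cases h1 : m < i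
    · have h2 : m + 1 ≤ i := h1
      simp only [h1, h2, if_true]; exact hr2 m (by omega)
    · have h2 : ¬ m + 1 ≤ i := by omega
      have h3 : m + 1 + (j - i) = m + (j - i) + 1 := by omega
      simp only [h1, h2, if_false, h3]; exact hr2 _ (by omega)

/-- a chord `R1 (y i) (x j)` with `j < i` gives a shorter closed walk -/
theorem cw_short2 {α : Type*} {X Y : Set α} {R1 R2 : α → α → Prop} {k : ℕ} {y x : ℕ → α}
    (h : IsCW X Y R1 R2 k y x) {i j : ℕ} (hji : j < i) (hi : i < k) (hc : R1 (y i) (x j)) :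
    ∃ k' < k, ∃ y' x', IsCW X Y R1 R2 k' y' x' := by
  obtain ⟨hk, hcl, hyY, hxX, hr1, hr2⟩ := h
  refine ⟨i - j, by omega, fun m => if m = 0 then y i else y (j + m),
    fun m => x (j + m), by omega, ?_, ?_, ?_, ?_, ?_⟩
  · have h1 : ¬ (i - j = 0) := by omega
    have h2 : j + (i - j) = i := by omega
    simp only [h1, if_false, h2, if_true]
  · intro m hm
    by_cases h1 : m = 0
    · simp only [h1, if_true]; exact hyY i (by omega)
    · simp only [h1, if_false]; exact hyY _ (by omega)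
  · intro m hm
    exact hxX _ (by omega)
  · intro m hm
    by_cases h1 : m = 0
    · subst h1
      simp only [if_true, Nat.add_zero]; exact hc
    · simp only [h1, if_false]; exact hr1 _ (by omega)
  · intro m hm
    have h1 : ¬ (m + 1 = 0) := by omega
    have h3 : j + (m + 1) = j + m + 1 := by omega
    simp only [h1, if_false, h3]; exact hr2 _ (by omega)

/-- a chord `R2 (x i) (y j)` with `i + 1 < j` gives a shorter closed walk -/
theorem cw_short3 {α : Type*} {X Y : Set α} {R1 R2 : α → α → Prop} {k : ℕ} {y x : ℕ → α}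
    (h : IsCW X Y R1 R2 k y x) {i j : ℕ} (hij : i + 1 < j) (hj : j ≤ k) (hc : R2 (x i) (y j)) :
    ∃ k' < k, ∃ y' x', IsCW X Y R1 R2 k' y' x' := by
  obtain ⟨hk, hcl, hyY, hxX, hr1, hr2⟩ := h
  refine ⟨k - (j - i - 1), by omega, fun m => if m ≤ i then y m else y (m + (j - i - 1)),
    fun m => if m ≤ i then x m else x (m + (j - i - 1)), by omega, ?_, ?_, ?_, ?_, ?_⟩
  · have h1 : ¬ (k - (j - i - 1) ≤ i) := by omega
    have h2 : k - (j - i - 1) + (j - i - 1) = k := by omega
    simp only [h1, if_false, h2, Nat.zero_le, if_true]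
    exact hcl
  · intro m hm
    by_cases h1 : m ≤ i
    · simp only [h1, if_true]; exact hyY m (by omega)
    · simp only [h1, if_false]; exact hyY _ (by omega)
  · intro m hm
    by_cases h1 : m ≤ i
    · simp only [h1, if_true]; exact hxX m (by omega)
    · simp only [h1, if_false]; exact hxX _ (by omega)
  · intro m hm
    by_cases h1 : m ≤ i
    · simp only [h1, if_true]; exact hr1 m (by omega)
    · simp only [h1, if_false]; exact hr1 _ (by omega)
  · intro m hm
    rcases lt_trichotomy m i with h1 | h1 | h1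
    · have h2 : m ≤ i := h1.le
      have h3 : m + 1 ≤ i := h1
      simp only [h2, h3, if_true]; exact hr2 m (by omega)
    · subst h1
      have h2 : ¬ m + 1 ≤ m := by omega
      have h3 : m + 1 + (j - m - 1) = j := by omega
      simp only [le_refl, if_true, h2, if_false, h3]; exact hc
    · have h2 : ¬ m ≤ i := by omega
      have h3 : ¬ m + 1 ≤ i := by omega
      have h4 : m + 1 + (j - i - 1) = m + (j - i - 1) + 1 := by omega
      simp only [h2, h3, if_false, h4]; exact hr2 _ (by omega)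

/-- a chord `R2 (x i) (y j)` with `1 ≤ j ≤ i` gives a shorter closed walk -/
theorem cw_short4 {α : Type*} {X Y : Set α} {R1 R2 : α → α → Prop} {k : ℕ} {y x : ℕ → α}
    (h : IsCW X Y R1 R2 k y x) {i j : ℕ} (hj1 : 1 ≤ j) (hji : j ≤ i) (hi : i < k)
    (hc : R2 (x i) (y j)) :
    ∃ k' < k, ∃ y' x', IsCW X Y R1 R2 k' y' x' := by
  obtain ⟨hk, hcl, hyY, hxX, hr1, hr2⟩ := h
  refine ⟨i - j + 1, by omega, fun m => if m < i - j + 1 then y (j + m) else y j,
    fun m => x (j + m), by omega, ?_, ?_, ?_, ?_, ?_⟩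
  · have h1 : 0 < i - j + 1 := by omega
    simp only [lt_irrefl, if_false, h1, if_true, Nat.add_zero]
  · intro m hm
    by_cases h1 : m < i - j + 1
    · simp only [h1, if_true]; exact hyY _ (by omega)
    · simp only [h1, if_false]; exact hyY _ (by omega)
  · intro m hm
    exact hxX _ (by omega)
  · intro m hm
    simp only [hm, if_true]; exact hr1 _ (by omega)
  · intro m hm
    by_cases h1 : m + 1 < i - j + 1
    · have h3 : j + (m + 1) = j + m + 1 := by omega
      simp only [h1, if_true, h3]; exact hr2 _ (by omega)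
    · have h3 : j + m = i := by omega
      simp only [h1, if_false, h3]; exact hc

/-- PART W: a shortest closed alternating walk has no chords. -/
theorem exists_chordless {α : Type*} [Finite α] (X Y : Set α) (R1 R2 : α → α → Prop)
    (hY : Y.Nonempty)
    (h1 : ∀ y ∈ Y, ∃ x ∈ X, R1 y x) (h2 : ∀ x ∈ X, ∃ y ∈ Y, R2 x y) :
    ∃ (k : ℕ) (y x : ℕ → α), 0 < k ∧ y k = y 0 ∧ (∀ i ≤ k, y i ∈ Y) ∧ (∀ i < k, x i ∈ X) ∧
      (∀ i < k, R1 (y i) (x i)) ∧ (∀ i < k, R2 (x i) (y (i + 1))) ∧
      (∀ i < k, ∀ j < k, R1 (y i) (x j) → i = j) ∧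
      (∀ i < k, ∀ j, 1 ≤ j → j ≤ k → R2 (x i) (y j) → j = i + 1) := by
  classical
  have hex := exists_cw X Y R1 R2 hY h1 h2
  obtain ⟨y, x, hw⟩ := Nat.find_spec hex
  have hmin : ∀ k' < Nat.find hex, ¬ ∃ y' x', IsCW X Y R1 R2 k' y' x' :=
    fun k' hk' => Nat.find_min hex hk'
  refine ⟨Nat.find hex, y, x, hw.1, hw.2.1, hw.2.2.1, hw.2.2.2.1, hw.2.2.2.2.1, hw.2.2.2.2.2,
    ?_, ?_⟩
  · intro i hi j hj hc
    rcases lt_trichotomy i j with h | h | h
    · obtain ⟨k', hk', hh⟩ := cw_short1 hw h hj hc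
      exact absurd hh (hmin k' hk')
    · exact h
    · obtain ⟨k', hk', hh⟩ := cw_short2 hw h hi hc
      exact absurd hh (hmin k' hk')
  · intro i hi j hj1 hjk hc
    rcases lt_trichotomy j (i + 1) with h | h | h
    · obtain ⟨k', hk', hh⟩ := cw_short4 hw hj1 (by omega) hi hc
      exact absurd hh (hmin k' hk')
    · exact h
    · obtain ⟨k', hk', hh⟩ := cw_short3 hw h hjk hc
      exact absurd hh (hmin k' hk')

end Vale.Agent.P317
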