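import Vale.Agent.P317.Swap
import Vale.Agent.P317.Out
import Vale.Agent.P317.Walk
import Vale.Agent.P317.Ball

/-! P317: if the independent sets of `M₁` of size at most `r - c` are independent in `M₂`, every
base of `M₁` is within `c` exchanges of a common base. -/

namespace Vale.Agent.P317

open Set

theorem ncard_of_isBase {α : Type*} {M : Matroid α} {r : ℕ} (h : M.eRank = r)
    {B : Set α} (hB : M.IsBase B) : B.ncard = r := by
  have h1 := hB.encard_eq_eRank
  rw [h] at h1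
  rw [ncard_def, h1]
  rfl

theorem isBase_of_indep_ncard {α : Type*} [Finite α] {M : Matroid α} {r : ℕ} (h : M.eRank = r)
    {J : Set α} (hJ : M.Indep J) (hc : J.ncard = r) : M.IsBase J := by
  obtain ⟨B2, hB2, hsub⟩ := hJ.exists_isBase_superset
  have h2 : B2.ncard = r := ncard_of_isBase h hB2
  have : J = B2 := eq_of_subset_of_ncard_le hsub (by omega) (Set.toFinite _)
  exact this ▸ hB2

theorem ncard_Iio_nat (k : ℕ) : (Iio k : Set ℕ).ncard = k := by
  rw [← Finset.coe_range, ncard_coe_finset, Finset.card_range]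

theorem close_common {α : Type*} [Finite α] (M₁ M₂ : Matroid α) (r c : ℕ) (hE : M₁.E = M₂.E)
    (h₁ : M₁.eRank = r) (h₂ : M₂.eRank = r)
    (hlow : ∀ I : Set α, M₁.Indep I → I.ncard + c ≤ r → M₂.Indep I)
    {B0 : Set α} (h01 : M₁.IsBase B0) (h02 : M₂.IsBase B0) {B : Set α} (hB : M₁.IsBase B) :
    ∃ B', M₁.IsBase B' ∧ M₂.IsBase B' ∧ (B \ B').ncard ≤ c := by
  classical
  obtain ⟨B', ⟨hB'1, hB'2⟩, hmax⟩ := Set.exists_max_image
    {B' : Set α | M₁.IsBase B' ∧ M₂.IsBase B'} (fun B' => (B ∩ B').ncard) (Set.toFinite _)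
    ⟨B0, h01, h02⟩
  refine ⟨B', hB'1, hB'2, ?_⟩
  by_contra hc
  push Not at hc
  have hBr : B.ncard = r := ncard_of_isBase h₁ hB
  have hB'r : B'.ncard = r := ncard_of_isBase h₁ hB'1
  have hsplit : (B ∩ B').ncard + (B \ B').ncard = r := by
    rw [ncard_inter_add_ncard_sdiff_eq_ncard B B' (Set.toFinite _), hBr]
  have hYne : (B' \ B).Nonempty := by
    by_contra hemp
    rw [Set.not_nonempty_iff_eq_empty, sdiff_eq_empty] at hemp
    have : B' = B := hB'1.eq_of_subset_isBase hB hemp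
    rw [this, sdiff_self] at hc
    simp at hc
  have h1 : ∀ y ∈ B' \ B, ∃ x ∈ B \ B', x ∉ M₁.closure (B' \ {y}) :=
    fun y hy => out1 M₁ hB hB'1 hy
  have h2 : ∀ x ∈ B \ B', ∃ y ∈ B' \ B, x ∉ M₂.closure (B' \ {y}) := by
    intro x hx
    apply out2 M₂ hB'2 hx
    apply hlow
    · exact hB.indep.subset (insert_subset hx.1 inter_subset_left)
    · rw [ncard_insert_of_notMem (fun h => hx.2 h.2) (Set.toFinite _)]
      omega
  obtain ⟨k, y, x, hk, hyk, hyY, hxX, ha1, ha2, hc1, hc2⟩ :=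
    exists_chordless (B \ B') (B' \ B) (fun y x => x ∉ M₁.closure (B' \ {y}))
      (fun x y => x ∉ M₂.closure (B' \ {y})) hYne h1 h2
  have hJ1 : M₁.Indep ((B' \ (y '' Iio k)) ∪ (x '' Iio k)) :=
    swap_indep M₁ hB'1.indep k y x (fun i hi => hB.subset_ground (hxX i hi).1) ha1
      (fun i hi j hj hij => by
        by_contra h
        exact hij (hc1 i hi j hj h))
  have himg : (fun i => y (i + 1)) '' Iio k = y '' Iio k := by
    ext z
    constructor
    · rintro ⟨i, hi, rfl⟩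
      have hi' : i < k := hi
      by_cases h : i + 1 < k
      · exact ⟨i + 1, h, rfl⟩
      · have : i + 1 = k := by omega
        exact ⟨0, hk, by
          show y 0 = y (i + 1)
          rw [this, hyk]⟩
    · rintro ⟨i, hi, rfl⟩
      have hi' : i < k := hi
      rcases Nat.eq_zero_or_pos i with h | h
      · refine ⟨k - 1, (by
          show k - 1 < k
          omega), ?_⟩
        show y (k - 1 + 1) = y i
        rw [h, Nat.sub_add_cancel hk, hyk]
      · refine ⟨i - 1, (by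
          show i - 1 < k
          omega), ?_⟩
        show y (i - 1 + 1) = y i
        rw [Nat.sub_add_cancel h]
  have hJ2 : M₂.Indep ((B' \ (y '' Iio k)) ∪ (x '' Iio k)) := by
    have := swap_indep M₂ hB'2.indep k (fun i => y (i + 1)) x
      (fun i hi => hE ▸ hB.subset_ground (hxX i hi).1) ha2
      (fun i hi j hj hij => by
        by_contra h
        have := hc2 j hj (i + 1) (by omega) (by omega) h
        omega)
    rwa [himg] at this
  -- cardinalities
  have hyinj : InjOn y (Iio k) := by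
    intro i hi j hj hij
    apply hc1 i hi j hj
    show x j ∉ M₁.closure (B' \ {y i})
    rw [hij]
    exact ha1 j hj
  have hxinj : InjOn x (Iio k) := by
    intro i hi j hj hij
    apply hc1 i hi j hj
    show x j ∉ M₁.closure (B' \ {y i})
    rw [← hij]
    exact ha1 i hi
  have hYs : (y '' Iio k).ncard = k := by
    rw [hyinj.ncard_image, ncard_Iio_nat]
  have hXs : (x '' Iio k).ncard = k := by
    rw [hxinj.ncard_image, ncard_Iio_nat]
  have hYsub : y '' Iio k ⊆ B' := by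
    rintro z ⟨i, hi, rfl⟩
    exact (hyY i (le_of_lt hi)).1
  have hdisj : Disjoint (B' \ (y '' Iio k)) (x '' Iio k) := by
    rw [Set.disjoint_left]
    rintro z hz ⟨i, hi, rfl⟩
    exact (hxX i hi).2 hz.1
  have hJr : ((B' \ (y '' Iio k)) ∪ (x '' Iio k)).ncard = r := by
    rw [ncard_union_eq hdisj (Set.toFinite _) (Set.toFinite _),
      ncard_sdiff hYsub (Set.toFinite _), hYs, hXs, hB'r]
    have : k ≤ r := by
      rw [← hYs, ← hB'r]
      exact ncard_le_ncard hYsub (Set.toFinite _)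
    omega
  have hb1 := isBase_of_indep_ncard h₁ hJ1 hJr
  have hb2 := isBase_of_indep_ncard h₂ hJ2 hJr
  have hle := hmax _ ⟨hb1, hb2⟩
  have hsub : (B ∩ B') ∪ (x '' Iio k) ⊆ B ∩ ((B' \ (y '' Iio k)) ∪ (x '' Iio k)) := by
    rintro z (hz | ⟨i, hi, rfl⟩)
    · refine ⟨hz.1, Or.inl ⟨hz.2, ?_⟩⟩
      rintro ⟨i, hi, rfl⟩
      exact (hyY i (le_of_lt hi)).2 hz.1
    · exact ⟨(hxX i hi).1, Or.inr ⟨i, hi, rfl⟩⟩
  have hdisj2 : Disjoint (B ∩ B') (x '' Iio k) := by
    rw [Set.disjoint_left]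
    rintro z hz ⟨i, hi, rfl⟩
    exact (hxX i hi).2 hz.2
  have hge := ncard_le_ncard hsub (Set.toFinite _)
  rw [ncard_union_eq hdisj2 (Set.toFinite _) (Set.toFinite _), hXs] at hge
  have hle' : (B ∩ ((B' \ (y '' Iio k)) ∪ (x '' Iio k))).ncard ≤ (B ∩ B').ncard := hle
  omega

theorem main {α : Type*} [Finite α] (M₁ M₂ : Matroid α) (r c : ℕ) (hE : M₁.E = M₂.E)
    (h₁ : M₁.eRank = r) (h₂ : M₂.eRank = r)
    (hlow : ∀ I : Set α, M₁.Indep I → I.ncard + c ≤ r → M₂.Indep I)
    (hpos : ∃ B, M₁.IsBase B ∧ M₂.IsBase B) :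
    {B : Set α | M₁.IsBase B}.ncard ≤
      (∑ j ∈ Finset.range (c + 1), r.choose j * (M₂.E.ncard - r).choose j) *
        {B : Set α | M₁.IsBase B ∧ M₂.IsBase B}.ncard := by
  classical
  obtain ⟨B0, h01, h02⟩ := hpos
  set N : Set (Set α) := {B | M₁.IsBase B ∧ M₂.IsBase B} with hN
  have hsub : {B : Set α | M₁.IsBase B} ⊆ ⋃ B' ∈ (Set.toFinite N).toFinset,
      {B : Set α | B ⊆ M₂.E ∧ B.ncard = r ∧ (B \ B').ncard ≤ c} := by
    intro B hB
    obtain ⟨B', hb1, hb2, hc⟩ := close_common M₁ M₂ r c hE h₁ h₂ hlow h01 h02 hB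
    simp only [mem_iUnion]
    exact ⟨B', (Set.Finite.mem_toFinset _).2 ⟨hb1, hb2⟩, hE ▸ hB.subset_ground,
      ncard_of_isBase h₁ hB, hc⟩
  calc {B : Set α | M₁.IsBase B}.ncard ≤ _ := ncard_le_ncard hsub (Set.toFinite _)
    _ ≤ ∑ B' ∈ (Set.toFinite N).toFinset,
          {B : Set α | B ⊆ M₂.E ∧ B.ncard = r ∧ (B \ B').ncard ≤ c}.ncard :=
        Finset.set_ncard_biUnion_le _ _
    _ ≤ ∑ _B' ∈ (Set.toFinite N).toFinset,
          (∑ j ∈ Finset.range (c + 1), r.choose j * (M₂.E.ncard - r).choose j) := by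
        refine Finset.sum_le_sum fun B' hB' => ?_
        have hB'N : B' ∈ N := (Set.Finite.mem_toFinset _).1 hB'
        exact ball_count M₂.E B' r c hB'N.2.subset_ground (ncard_of_isBase h₂ hB'N.2)
    _ = _ := by
        rw [Finset.sum_const, smul_eq_mul, ncard_eq_toFinset_card N (Set.toFinite N), Nat.mul_comm]

end Vale.Agent.P317
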