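import Mathlib

/-! P317: exchanging along a chordless family of exchange arcs keeps independence. -/

namespace Vale.Agent.P317

open Set

theorem swap_indep {α : Type*} (M : Matroid α) {I : Set α} (hI : M.Indep I) (k : ℕ) (y x : ℕ → α)
    (hxE : ∀ i < k, x i ∈ M.E)
    (harc : ∀ i < k, x i ∉ M.closure (I \ {y i}))
    (hno : ∀ i < k, ∀ j < k, i ≠ j → x j ∈ M.closure (I \ {y i})) :
    M.Indep ((I \ (y '' Iio k)) ∪ (x '' Iio k)) := by
  by_contra hdep
  have hsubE : (I \ (y '' Iio k)) ∪ (x '' Iio k) ⊆ M.E := by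
    rintro z (hz | ⟨i, hi, rfl⟩)
    · exact hI.subset_ground hz.1
    · exact hxE i hi
  have hd : M.Dep ((I \ (y '' Iio k)) ∪ (x '' Iio k)) := ⟨hdep, hsubE⟩
  obtain ⟨C, hCJ, hC⟩ := hd.exists_isCircuit_subset
  -- the circuit contains some `x i`
  have hex : ∃ i, i < k ∧ x i ∈ C := by
    by_contra hcon
    push Not at hcon
    have hCI : C ⊆ I := by
      intro z hz
      rcases hCJ hz with h | ⟨i, hi, rfl⟩
      · exact h.1
      · exact absurd hz (hcon i hi)
    exact hC.dep.not_indep (hI.subset hCI)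
  obtain ⟨i, hi, hiC⟩ := hex
  have hsub : C \ {x i} ⊆ M.closure (I \ {y i}) := by
    rintro z ⟨hz, hzx⟩
    rcases hCJ hz with h | ⟨j, hj, rfl⟩
    · apply M.subset_closure (I \ {y i}) (sdiff_subset.trans hI.subset_ground)
      refine ⟨h.1, ?_⟩
      intro hzy
      exact h.2 ⟨i, hi, hzy.symm⟩
    · have hij : i ≠ j := by
        rintro rfl
        exact hzx rfl
      exact hno i hi j hj hij
  have h1 : x i ∈ M.closure (C \ {x i}) := hC.mem_closure_sdiff_singleton_of_mem hiC
  have h2 : M.closure (C \ {x i}) ⊆ M.closure (I \ {y i}) :=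
    M.closure_subset_closure_of_subset_closure hsub
  exact harc i hi (h2 h1)

end Vale.Agent.P317
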